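import Vale.Agent.P254.S.Iface
import Vale.Agent.P254.Bdl.B13

/-!
P254, block S, part S-EX3b (helper285): `StmtLKG → StmtEX`.

Compactness of the class `C21c`, passage to the limit in the push-forward identity of the Gaussian, and
the pointwise Monge-Ampère equation.
-/

set_option linter.all false

open MeasureTheory Filter Set
open scoped Topology RealInnerProductSpace

namespace Vale.Agent.P254.S.EX3b

open Vale.Agent.P227.M Vale.Agent.P254.S

variable {n : ℕ}

/-! ### the Gaussian weight -/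

theorem intQ : Integrable fun z : E n => Real.exp (-Q z) := by
  have h := MC.integrable_gauss (E := E n) (a := 1 / 2) (by norm_num)
  refine h.congr (ae_of_all _ fun z => ?_)
  simp only [Q]
  congr 2
  ring

theorem posQ : 0 < ∫ z : E n, Real.exp (-Q z) := by
  rw [integral_pos_iff_support_of_nonneg (fun y => (Real.exp_pos _).le) intQ]
  have : Function.support (fun y : E n => Real.exp (-Q y)) = Set.univ := by
    ext y
    simp [Real.exp_ne_zero]
  rw [this]
  exact isOpen_univ.measure_pos volume ⟨0, trivial⟩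

theorem continuous_Q : Continuous (Q : E n → ℝ) := by
  unfold Q
  fun_prop

/-! ### from `C21c` data plus a linear term to `BP` -/

private theorem inner_ei' (x : E n) (i : Fin n) : ⟪x, ei i⟫ = x i := by
  simp [ei, EuclideanSpace.inner_single_right]

private theorem sum_ei' (v : E n) : v = ∑ i, v i • ei i := by
  have h := (EuclideanSpace.basisFun (Fin n) ℝ).sum_repr v
  conv_lhs => rw [← h]
  simp [ei]

private theorem inner_sum' (v w : E n) : ⟪v, w⟫ = ∑ i, v i * w i := by
  simp [PiLp.inner_apply, mul_comm]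

theorem bp_of {a b M κ : ℝ} {φ V : E n → ℝ} {G : E n → E n} {H : E n → E n →L[ℝ] E n} (ha : 0 < a)
    (hC : MC.C21c a b M φ G H) (w : E n)
    (hma : ∀ z, V (G z + w) = ‖z‖ ^ 2 / 2 + Real.log (H z).det + κ) :
    BP (fun z => φ z + ⟪w, z⟫) V a b M κ := by
  set Φ : E n → ℝ := fun z => φ z + ⟪w, z⟫ with hΦ
  have hg : ∀ z, HasGradientAt Φ (G z + w) z := by
    intro z
    rw [hasGradientAt_iff_hasFDerivAt]
    have h1 := (hC.grad z).hasFDerivAt
    have h2 : HasFDerivAt (fun z : E n => ⟪w, z⟫) (innerSL ℝ w) z := (innerSL ℝ w).hasFDerivAt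
    have h3 := h1.add h2
    refine h3.congr_fderiv ?_
    ext v
    simp [inner_add_left]
  have hgr : ∀ z, gradient Φ z = G z + w := fun z => (hg z).gradient
  have hfd : fderiv ℝ Φ = fun z => innerSL ℝ (G z + w) := by
    funext z
    have h1 := (hg z).hasFDerivAt.fderiv
    rw [h1]
    ext v
    simp
  have hpd : ∀ i z, pd i Φ z = (G z + w) i := by
    intro i z
    rw [pd, hfd]
    simp only [innerSL_apply_apply]
    exact inner_ei' _ _
  have hGw : ∀ z, HasFDerivAt (fun z => G z + w) (H z) z := fun z => (hC.hess z).add_const w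
  have hhess : ∀ z i j, hess Φ z i j = (H z (ei i)) j := by
    intro z i j
    have h1 : pd j Φ = fun z => (G z + w) j := funext fun z => hpd j z
    have h2 : HasFDerivAt (fun z => (G z + w) j)
        ((EuclideanSpace.proj j : E n →L[ℝ] ℝ).comp (H z)) z :=
      ((EuclideanSpace.proj j : E n →L[ℝ] ℝ).hasFDerivAt).comp z (hGw z)
    simp only [hess, h1, pd]
    rw [h2.fderiv]
    rfl
  have hqf : ∀ z v, qf (hess Φ z) v = ⟪H z v, v⟫ := by
    intro z v
    have h1 : H z v = ∑ i, v i • H z (ei i) := by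
      conv_lhs => rw [sum_ei' v]
      rw [map_sum]
      exact Finset.sum_congr rfl fun i _ => map_smul _ _ _
    rw [h1, _root_.sum_inner]
    simp only [qf, hhess]
    refine Finset.sum_congr rfl fun i _ => ?_
    rw [real_inner_smul_left, inner_sum', Finset.mul_sum]
    exact Finset.sum_congr rfl fun j _ => by ring
  have hdet : ∀ z, (hess Φ z).det = (H z).det := by
    intro z
    have h1 : hess Φ z = (LinearMap.toMatrix (EuclideanSpace.basisFun (Fin n) ℝ).toBasis
        (EuclideanSpace.basisFun (Fin n) ℝ).toBasis (H z : E n →ₗ[ℝ] E n)).transpose := by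
      ext i j
      rw [hhess, Matrix.transpose_apply, LinearMap.toMatrix_apply]
      simp [ei]
    rw [h1, Matrix.det_transpose, LinearMap.det_toMatrix]
  refine ⟨ha, ?_, fun z v => ?_, fun z v => ?_, fun i j x y => ?_, fun z => ?_⟩
  · have h1 : ContDiff ℝ 1 (fun z => G z + w) := by
      rw [contDiff_one_iff_fderiv]
      refine ⟨fun x => (hGw x).differentiableAt, ?_⟩
      have h2 : fderiv ℝ (fun z => G z + w) = H := funext fun x => (hGw x).fderiv
      rw [h2]; exact hC.continuous_H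
    have h3 : ContDiff ℝ 1 (fderiv ℝ Φ) := by
      rw [hfd]
      exact (innerSL ℝ : E n →L[ℝ] E n →L[ℝ] ℝ).contDiff.comp h1
    have h4 : ContDiff ℝ (1 + 1) Φ := by
      rw [contDiff_succ_iff_fderiv]
      exact ⟨fun x => (hg x).hasFDerivAt.differentiableAt, by simp, h3⟩
    exact h4
  · rw [hqf]; exact hC.lower z v
  · rw [hqf]; exact hC.upper z v
  · rw [hhess, hhess]
    have h1 : (H x (ei i)) j - (H y (ei i)) j = ⟪(H x - H y) (ei i), ei j⟫ := by
      rw [inner_ei']; simp
    rw [h1]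
    calc |⟪(H x - H y) (ei i), ei j⟫| ≤ ‖(H x - H y) (ei i)‖ * ‖(ei j : E n)‖ :=
          abs_real_inner_le_norm _ _
      _ ≤ (‖H x - H y‖ * ‖(ei i : E n)‖) * ‖(ei j : E n)‖ :=
          mul_le_mul_of_nonneg_right ((H x - H y).le_opNorm _) (norm_nonneg _)
      _ = ‖H x - H y‖ := by simp [ei]
      _ ≤ _ := hC.lip x y
  · rw [hgr, hdet]
    exact hma z

/-! ### dimension zero -/

theorem bp_zero (V : E 0 → ℝ) : BP (fun _ : E 0 => (0 : ℝ)) V 1 1 0 (V 0) := by
  have hz : ∀ v : E 0, ‖v‖ = 0 := fun v => by rw [Subsingleton.elim v 0, norm_zero]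
  refine ⟨one_pos, contDiff_const, fun x v => ?_, fun x v => ?_, fun i => i.elim0, fun x => ?_⟩
  · simp [qf, hz]
  · simp [qf, hz]
  · rw [Subsingleton.elim (gradient (fun _ : E 0 => (0 : ℝ)) x) 0, hz x]
    simp

/-! ### the limit -/

/-- removing the normalisation of the test functions -/
theorem tendsto_of_lip {V : E n → ℝ} {g : ℕ → E n → E n} {e : ℕ → ℝ} (he : Tendsto e atTop (𝓝 0))
    (h : ∀ j, ∀ F : E n → ℝ, LipschitzWith 1 F → (∀ x, |F x| ≤ 1) →
      |Ex Q (fun z => F (g j z)) - Ex V F| ≤ e j)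
    {F : E n → ℝ} {K : NNReal} (hK : LipschitzWith K F) {B : ℝ} (hB : ∀ x, |F x| ≤ B) :
    Tendsto (fun j => Ex Q (fun z => F (g j z))) atTop (𝓝 (Ex V F)) := by
  have hB0 : 0 ≤ B := (abs_nonneg _).trans (hB 0)
  set l : ℝ := K + B + 1 with hl
  have hl0 : 0 < l := by positivity
  have h1 : LipschitzWith 1 (fun x => l⁻¹ * F x) := by
    refine LipschitzWith.of_dist_le_mul fun x y => ?_
    rw [Real.dist_eq, ← mul_sub, abs_mul, abs_of_pos (by positivity : 0 < l⁻¹)]
    have h2 := hK.dist_le_mul x y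
    rw [Real.dist_eq] at h2
    have h3 : (K : ℝ) * dist x y ≤ l * dist x y := mul_le_mul_of_nonneg_right (by linarith) dist_nonneg
    rw [inv_mul_le_iff₀ hl0]
    simpa using h2.trans h3
  have h2 : ∀ x, |l⁻¹ * F x| ≤ 1 := by
    intro x
    rw [abs_mul, abs_of_pos (by positivity : 0 < l⁻¹), inv_mul_le_iff₀ hl0, mul_one]
    have := hB x
    have hK0 : (0 : ℝ) ≤ K := K.2
    linarith
  have hEx : ∀ (W f : E n → ℝ), Ex W (fun x => l⁻¹ * f x) = l⁻¹ * Ex W f := by
    intro W f
    unfold Ex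
    rw [← mul_div_assoc, ← integral_const_mul]
    congr 1
    refine integral_congr_ae (Eventually.of_forall fun y => ?_)
    simp only
    ring
  rw [tendsto_iff_dist_tendsto_zero]
  refine squeeze_zero (fun _ => dist_nonneg) (g := fun j : ℕ => l * e j) (fun j => ?_) ?_
  · have h3 := h j (fun x => l⁻¹ * F x) h1 h2
    rw [hEx Q (fun z => F (g j z)), hEx V F, ← mul_sub, abs_mul,
      abs_of_pos (by positivity : 0 < l⁻¹), inv_mul_le_iff₀ hl0] at h3
    rw [Real.dist_eq]
    exact h3
  · simpa using he.const_mul l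

theorem C21c_sub_const {a b M : ℝ} {φ : E n → ℝ} {G : E n → E n} {H : E n → E n →L[ℝ] E n}
    (h : MC.C21c a b M φ G H) (r : ℝ) : MC.C21c a b M (fun z => φ z - r) G H := by
  refine ⟨fun y => ?_, h.hess, h.lower, h.upper, h.lip, h.zero⟩
  have h1 := (h.grad y).hasFDerivAt.sub_const r
  exact hasGradientAt_iff_hasFDerivAt.2 h1

/-- the heart of S-EX3b, pointwise in `V`, same constants `a`, `b`, `M` -/
theorem bp_of_lkg (hn : 0 < n) {V : E n → ℝ} {c C a b M R : ℝ} (hV : Reg V c C) (ha : 0 < a)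
    (hM : ∀ ε > 0, ∃ (φ : E n → ℝ) (G : E n → E n) (H : E n → E n →L[ℝ] E n)
      (w : E n), MC.C21c a b M φ G H ∧ ‖w‖ ≤ R ∧
      ∀ F : E n → ℝ, LipschitzWith 1 F → (∀ x, |F x| ≤ 1) →
        |Ex Q (fun z => F (G z + w)) - Ex V F| ≤ ε) :
    ∃ (φ : E n → ℝ) (κ : ℝ), BP φ V a b M κ := by
  have he : ∀ j : ℕ, (0 : ℝ) < 1 / ((j : ℝ) + 1) := fun j => by positivity
  choose φ G H w hC hw hF using fun j : ℕ => hM (1 / ((j : ℝ) + 1)) (he j)
  have he0 : Tendsto (fun j : ℕ => 1 / ((j : ℝ) + 1)) atTop (𝓝 0) :=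
    tendsto_one_div_add_atTop_nhds_zero_nat
  have hb : 0 ≤ b := by
    have h1 := (hC 0).lower 0 (ei ⟨0, hn⟩)
    have h2 := (hC 0).upper 0 (ei ⟨0, hn⟩)
    have h3 : ‖(ei ⟨0, hn⟩ : E n)‖ = 1 := by simp [ei]
    rw [h3] at h1 h2
    linarith
  -- convergence of the linear terms
  obtain ⟨w', -, θ, hθ, hwθ⟩ := (isCompact_closedBall (0 : E n) R).tendsto_subseq
    (x := w) (fun j => by rw [mem_closedBall_zero_iff]; exact hw j)
  obtain ⟨ψ, hψ, φ', G', H', hC', -, hG, hH⟩ := MC.exists_limit (B := 0) ha.le hb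
    (fun j => C21c_sub_const (hC (θ j)) (φ (θ j) 0)) (fun j => by simp)
  have hθψ : Tendsto (fun j => θ (ψ j)) atTop atTop := hθ.tendsto_atTop.comp hψ.tendsto_atTop
  have hw2 : Tendsto (fun j => w (θ (ψ j))) atTop (𝓝 w') := hwθ.comp hψ.tendsto_atTop
  -- the limit map
  set g : E n → E n := fun z => G' z + w' with hg
  have hgd : ∀ z, HasFDerivAt g (H' z) z := fun z => (hC'.hess z).add_const w'
  have hgf : fderiv ℝ g = H' := funext fun z => (hgd z).fderiv
  have hg1 : ContDiff ℝ 1 g := by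
    rw [contDiff_one_iff_fderiv]
    refine ⟨fun z => (hgd z).differentiableAt, ?_⟩
    rw [hgf]
    exact hC'.continuous_H
  have hm : ∀ x y, a * ‖x - y‖ ^ 2 ≤ inner ℝ (g x - g y) (x - y) := by
    intro x y
    have h1 := hC'.mono y (x - y)
    rw [add_sub_cancel] at h1
    have h2 : g x - g y = G' x - G' y := by simp [hg]
    rw [h2]
    exact h1
  -- push forward in the limit
  have hpush : ∀ F : E n → ℝ, (∃ K, LipschitzWith K F) → HasCompactSupport F →
      Ex Q (fun z => F (g z)) = Ex V F := by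
    intro F hF1 hFc
    obtain ⟨K, hK⟩ := hF1
    obtain ⟨BF, hBF⟩ := hFc.exists_bound_of_continuous hK.continuous
    have hBF' : ∀ x, |F x| ≤ BF := fun x => by simpa using hBF x
    have hlim1 := (tendsto_of_lip (g := fun j z => G j z + w j) he0 hF hK hBF').comp hθψ
    have hlim2 : Tendsto (fun j => ∫ z, F (G (θ (ψ j)) z + w (θ (ψ j))) * Real.exp (-Q z)) atTop
        (𝓝 (∫ z, F (g z) * Real.exp (-Q z))) := by
      refine tendsto_integral_of_dominated_convergence (fun z => BF * Real.exp (-Q z)) (fun j => ?_)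
        (intQ.const_mul _) (fun j => ?_) ?_
      · exact ((hK.continuous.comp ((hC (θ (ψ j))).continuous_G.add continuous_const)).mul
          continuous_Q.neg.rexp).aestronglyMeasurable
      · refine Eventually.of_forall fun y => ?_
        rw [norm_mul, Real.norm_eq_abs, Real.norm_eq_abs, abs_of_pos (Real.exp_pos _)]
        exact mul_le_mul_of_nonneg_right (hBF' _) (Real.exp_pos _).le
      · refine Eventually.of_forall fun y => ?_
        refine Tendsto.mul_const _ ?_
        exact (hK.continuous.tendsto _).comp ((hG y).add hw2)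
    have hlim3 := hlim2.div_const (∫ z : E n, Real.exp (-Q z))
    exact tendsto_nhds_unique hlim3 hlim1
  have hZQ := posQ (n := n)
  have hZV := hV.Z_pos
  set ZQ := ∫ z : E n, Real.exp (-Q z) with hZQd
  set ZV := ∫ x, Real.exp (-V x) with hZVd
  have key : ∀ z, Real.exp (-Q z) / ZQ = Real.exp (-V (g z)) / ZV * (H' z).det := by
    intro z
    have h1 := Vale.Agent.P227.M.LIM.eq_mul_det_of_integral ha hg1 hm
      (f := fun y => Real.exp (-Q y) / ZQ) (h := fun x => Real.exp (-V x) / ZV)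
      (continuous_Q.neg.rexp.div_const _) (hV.smooth.continuous.neg.rexp.div_const _) ?_ z
    · rw [hgf] at h1
      exact h1
    · intro F hF1 hFc
      have h2 := hpush F hF1 hFc
      unfold Ex at h2
      rw [← integral_div, ← integral_div] at h2
      simp_rw [mul_div_assoc] at h2
      exact h2
  have hdet : ∀ z, 0 < (H' z).det := fun z =>
    Vale.Agent.P227.M.LIM.det_pos_of_coercive ha (H' z) (fun v => hC'.lower z v)
  refine ⟨fun z => φ' z + ⟪w', z⟫, Real.log ZQ - Real.log ZV, bp_of ha hC' w' fun z => ?_⟩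
  have h1 := congrArg Real.log (key z)
  rw [Real.log_div (Real.exp_ne_zero _) hZQ.ne', Real.log_mul (by positivity) (hdet z).ne',
    Real.log_div (Real.exp_ne_zero _) hZV.ne', Real.log_exp, Real.log_exp] at h1
  have h2 : V (g z) = Q z + Real.log (H' z).det + (Real.log ZQ - Real.log ZV) := by linarith
  exact h2

theorem stmtEX_of_LKG (h : StmtLKG) : StmtEX := by
  intro n V c C hV
  rcases Nat.eq_zero_or_pos n with rfl | hn
  · exact ⟨_, _, _, _, _, bp_zero V⟩
  obtain ⟨a, b, M, R, ha, hM⟩ := h n hn V c C hV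
  obtain ⟨φ, κ, h1⟩ := bp_of_lkg hn hV ha hM
  exact ⟨φ, a, b, M, κ, h1⟩

/-- **S-EX3** -/
theorem stmtLIMG : StmtLIMG := stmtEX_of_LKG

end Vale.Agent.P254.S.EX3b
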